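import Mathlib.Analysis.Complex.Basic
import Mathlib.Combinatorics.SimpleGraph.Basic
import Mathlib.Topology.MetricSpace.Basic
import Mathlib.Topology.Connected.PathConnected

/-! Graphs of disjoint discs of plane length spaces: definitions. -/

set_option autoImplicit false

namespace Vale.Agent.P305.R2.H457

/-- `d` is a *length metric* on the plane set `X`: symmetric, with the triangle inequality, and any
two points `x`, `y` of `X` can be joined in `X`, for every `ε > 0`, by a curve all of whose points
`z` satisfy `d x z + d z y ≤ d x y + ε`. (If `d` is geodesic, `ε = 0` is possible.) -/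
def IsPlaneLength (X : Set ℂ) (d : ℂ → ℂ → ℝ) : Prop :=
  (∀ x ∈ X, ∀ y ∈ X, d x y = d y x) ∧
  (∀ x ∈ X, ∀ y ∈ X, ∀ z ∈ X, d x z ≤ d x y + d y z) ∧
  ∀ x ∈ X, ∀ y ∈ X, ∀ ε : ℝ, 0 < ε →
    ∃ p : Path x y, (∀ t, p t ∈ X) ∧ ∀ t, d x (p t) + d (p t) y ≤ d x y + ε

/-- The graph `G` is a *disjointness graph of discs of a length metric on a plane set*: its vertices
are discs (centre `c v`, radius `r v`), two different ones adjacent iff the distance of the centres
is larger than the sum of the radii. -/
def IsCoGeo {V : Type} (G : SimpleGraph V) : Prop :=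
  ∃ (X : Set ℂ) (d : ℂ → ℂ → ℝ), IsPlaneLength X d ∧
    ∃ (c : V → ℂ) (r : V → ℝ), (∀ v, c v ∈ X) ∧
      ∀ u v, u ≠ v → (G.Adj u v ↔ r u + r v < d (c u) (c v))

/-- A *geodesic* metric space: any two points are joined by a path all of whose points lie between
them. -/
def IsGeodesic (M : Type) [MetricSpace M] : Prop :=
  ∀ x y : M, ∃ p : Path x y, ∀ t, dist x (p t) + dist (p t) y = dist x y

end Vale.Agent.P305.R2.H457
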