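import Vale.Agent.P305.R2.H457.Grid
import Vale.Agent.P305.R2.H457.GeoDefs
import Mathlib.Combinatorics.SimpleGraph.Coloring.Constructions
import Mathlib.Topology.MetricSpace.Basic
import Mathlib.Topology.Order.IntermediateValue

/-! Graphs of disjoint discs of plane length spaces. -/

set_option autoImplicit false

open unitInterval

namespace Vale.Agent.P305.R2.H457

theorem IsCoGeo.induce {V : Type} {G : SimpleGraph V} (h : IsCoGeo G) (S : Set V) :
    IsCoGeo (G.induce S) := by
  obtain ⟨X, d, hd, c, r, hc, hadj⟩ := h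
  exact ⟨X, d, hd, fun v => c v, fun v => r v, fun v => hc v, fun u v huv =>
    hadj u v fun h => huv (Subtype.ext h)⟩

theorem odd_walk {V : Type} (G : SimpleGraph V) (S : Set V)
    (h : ¬ (G.induce S).IsBipartite) : ∃ (s : ℕ) (a : ℕ → V), Odd s ∧ a s = a 0 ∧
      (∀ i, a i ∈ S) ∧ ∀ i, i < s → G.Adj (a i) (a (i + 1)) := by
  rw [SimpleGraph.IsBipartite, SimpleGraph.two_colorable_iff_forall_loop_even] at h
  push Not at h
  obtain ⟨u, w, hw⟩ := h
  refine ⟨w.length, fun i => (w.getVert i : V), Nat.not_even_iff_odd.1 hw, ?_, ?_, ?_⟩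
  · simp
  · intro i; exact (w.getVert i).2
  · intro i hi
    have := w.adj_getVert_succ hi
    simpa using this

/-- The exchange argument. -/
theorem exchange {X : Set ℂ} {d : ℂ → ℂ → ℝ} (hd : IsPlaneLength X d) {x x' y y' z : ℂ}
    (mx : x ∈ X) (mx' : x' ∈ X) (my : y ∈ X) (my' : y' ∈ X) (mz : z ∈ X) {r r' s s' ε : ℝ}
    (hx : r + r' + ε ≤ d x x') (hy : s + s' < d y y') (h1 : d x y ≤ r + s)
    (h2 : d x' y' ≤ r' + s') (z1 : d x z + d z y ≤ d x y + ε / 2)
    (z2 : d x' z + d z y' ≤ d x' y' + ε / 2) : False := by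
  have t1 := hd.2.1 x mx z mz x' mx'
  have t2 := hd.2.1 y my z mz y' my'
  rw [hd.1 z mz x' mx'] at t1
  rw [hd.1 y my z mz] at t2
  linarith

/-- The graph has no two odd closed walks in two disjoint, mutually non-adjacent sets. -/
theorem cogeo_pair {V : Type} (G : SimpleGraph V) (hG : IsCoGeo G) (S T : Set V)
    (hST : ∀ u ∈ S, ∀ v ∈ T, u ≠ v ∧ ¬ G.Adj u v) (hS : ¬ (G.induce S).IsBipartite)
    (hT : ¬ (G.induce T).IsBipartite) : False := by
  obtain ⟨X, d, hd, c, r, hc, hadj⟩ := hG
  obtain ⟨s, a, hs, has, haS, haadj⟩ := odd_walk G S hS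
  obtain ⟨t, b, ht, hbt, hbT, hbadj⟩ := odd_walk G T hT
  have far : ∀ u v, G.Adj u v → r u + r v < d (c u) (c v) := fun u v h => (hadj u v h.ne).1 h
  have near : ∀ u ∈ S, ∀ v ∈ T, d (c u) (c v) ≤ r u + r v := by
    intro u hu v hv
    obtain ⟨h1, h2⟩ := hST u hu v hv
    exact not_lt.1 fun h => h2 ((hadj u v h1).2 h)
  obtain ⟨ε, hε, hεs⟩ : ∃ ε : ℝ, 0 < ε ∧ ∀ i < s,
      r (a i) + r (a (i + 1)) + ε ≤ d (c (a i)) (c (a (i + 1))) := by
    obtain ⟨k, hk, hmin⟩ := Finset.exists_min_image (Finset.range s)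
      (fun i => d (c (a i)) (c (a (i + 1))) - (r (a i) + r (a (i + 1))))
      ⟨0, Finset.mem_range.2 hs.pos⟩
    refine ⟨_, sub_pos.2 (far _ _ (haadj k (Finset.mem_range.1 hk))), fun i hi => ?_⟩
    have := hmin i (Finset.mem_range.2 hi)
    linarith
  choose p hpX hp using fun u v : V => hd.2.2 (c u) (hc u) (c v) (hc v) (ε / 2) (half_pos hε)
  refine no_grid c c p a b hs ht has hbt ?_ ?_
  · intro i hi j hj q q' h
    have z1 := hp (a i) (b j) q
    have z2 := hp (a (i + 1)) (b (j + 1)) q'
    rw [← h] at z2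
    exact exchange hd (hc _) (hc _) (hc _) (hc _) (hpX _ _ _) (hεs i hi) (far _ _ (hbadj j hj))
      (near _ (haS i) _ (hbT j)) (near _ (haS (i + 1)) _ (hbT (j + 1))) z1 z2
  · intro i hi j hj q q' h
    have z1 := hp (a i) (b (j + 1)) q
    have z2 := hp (a (i + 1)) (b j) q'
    rw [← h] at z2
    exact exchange hd (hc _) (hc _) (hc _) (hc _) (hpX _ _ _) (hεs i hi)
      (far _ _ (hbadj j hj).symm) (near _ (haS i) _ (hbT (j + 1)))
      (near _ (haS (i + 1)) _ (hbT j)) z1 z2

/-- In a geodesic metric space the numerical condition says that the closed discs are disjoint. -/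
theorem disjoint_discs {M : Type} [MetricSpace M] (hM : IsGeodesic M) (x y : M) (r s : ℝ)
    (hr : 0 ≤ r) (hs : 0 ≤ s) :
    Disjoint (Metric.closedBall x r) (Metric.closedBall y s) ↔ r + s < dist x y := by
  constructor
  · intro h
    by_contra hn
    rw [not_lt] at hn
    obtain ⟨p, hp⟩ := hM x y
    have hf : Continuous fun t => dist x (p t) := by fun_prop
    have h0 : (fun t => dist x (p t)) 0 = 0 := by simp
    have h1 : (fun t => dist x (p t)) 1 = dist x y := by simp
    have hm : min r (dist x y) ∈ Set.Icc ((fun t => dist x (p t)) 0)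
        ((fun t => dist x (p t)) 1) := by
      rw [h0, h1]
      exact ⟨le_min hr dist_nonneg, min_le_right _ _⟩
    obtain ⟨t, ht⟩ := mem_range_of_exists_le_of_exists_ge hf ⟨0, hm.1⟩ ⟨1, hm.2⟩
    have ht' : dist x (p t) = min r (dist x y) := ht
    have hd := Set.disjoint_left.1 h
    refine @hd (p t) ?_ ?_
    · rw [Metric.mem_closedBall, dist_comm, ht']
      exact min_le_left _ _
    · rw [Metric.mem_closedBall]
      have h2 := hp t
      rw [ht'] at h2
      rcases min_cases r (dist x y) with h3 | h3 <;> rw [h3.1] at h2 <;> linarith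
  · intro h
    rw [Set.disjoint_left]
    intro z h1 h2
    rw [Metric.mem_closedBall] at h1 h2
    have := dist_triangle_left x y z
    linarith

/-- The numerical form for a metric space with a continuous injection to the plane, in which any
two points can be joined by curves which are almost between them. -/
theorem isCoGeo_of_metric {V : Type} (G : SimpleGraph V) {M : Type} [MetricSpace M] (e : M → ℂ)
    (he : Continuous e) (hinj : Function.Injective e)
    (hM : ∀ x y : M, ∀ ε : ℝ, 0 < ε → ∃ p : Path x y,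
      ∀ t, dist x (p t) + dist (p t) y ≤ dist x y + ε) (c : V → M) (r : V → ℝ)
    (h : ∀ u v, u ≠ v → (G.Adj u v ↔ r u + r v < dist (c u) (c v))) : IsCoGeo G := by
  classical
  by_cases hn : Nonempty M
  · let g : ℂ → M := Function.invFun e
    have hg : ∀ m, g (e m) = m := Function.leftInverse_invFun hinj
    refine ⟨Set.range e, fun x y => dist (g x) (g y), ⟨fun x _ y _ => dist_comm _ _,
      fun x _ y _ z _ => dist_triangle _ _ _, ?_⟩, fun v => e (c v), r, fun v => ⟨_, rfl⟩, ?_⟩
    · rintro _ ⟨x, rfl⟩ _ ⟨y, rfl⟩ ε hε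
      obtain ⟨p, hp⟩ := hM x y ε hε
      refine ⟨p.map he, fun t => ⟨p t, rfl⟩, fun t => ?_⟩
      have : (p.map he) t = e (p t) := rfl
      simp only [this, hg]
      exact hp t
    · intro u v huv
      simp only [h u v huv, hg]
  · have : IsEmpty V := ⟨fun v => hn ⟨c v⟩⟩
    exact ⟨∅, fun _ _ => 0, ⟨fun x hx => hx.elim, fun x hx => hx.elim, fun x hx => hx.elim⟩,
      fun v => this.elim v, r, fun v => this.elim v, fun u => this.elim u⟩

/-- Closed discs of a geodesic metric space with a continuous injection to the plane: the graph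
with adjacency = disjointness. -/
theorem isCoGeo_of_geodesic {V : Type} (G : SimpleGraph V) {M : Type} [MetricSpace M] (e : M → ℂ)
    (he : Continuous e) (hinj : Function.Injective e) (hM : IsGeodesic M) (c : V → M) (r : V → ℝ)
    (hr : ∀ v, 0 ≤ r v)
    (h : ∀ u v, u ≠ v → (G.Adj u v ↔
      Disjoint (Metric.closedBall (c u) (r u)) (Metric.closedBall (c v) (r v)))) : IsCoGeo G := by
  refine isCoGeo_of_metric G e he hinj (fun x y ε hε => ?_) c r fun u v huv => ?_
  · obtain ⟨p, hp⟩ := hM x y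
    exact ⟨p, fun t => by rw [hp t]; linarith⟩
  · rw [h u v huv, disjoint_discs hM _ _ _ _ (hr u) (hr v)]

end Vale.Agent.P305.R2.H457
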