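import Vale.Agent.P305.R2.H52.Ang
import Mathlib.Algebra.BigOperators.Group.Finset.Basic
import Mathlib.Algebra.BigOperators.Intervals
import Mathlib.Algebra.BigOperators.Field

/-! Two odd closed walks and plane paths between their vertices. -/

set_option autoImplicit false

open Complex unitInterval Finset

namespace Vale.Agent.P305.R2.H457

open Vale.Agent.P305.H52

/-- Telescoping product over a closed walk. -/
theorem prod_closed {t : ℕ} (f : ℕ → ℂ) (h0 : ∀ j, j ≤ t → f j ≠ 0) (hf : f t = f 0) :
    ∏ j ∈ range t, (f j / f (j + 1)) = 1 := by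
  rw [prod_div_distrib]
  have h1 : ∏ j ∈ range t, f (j + 1) = ∏ j ∈ range t, f j := by
    have h2 := prod_range_succ f t
    have h3 := prod_range_succ' f t
    rw [h2, hf] at h3
    exact (mul_right_cancel₀ (h0 0 (Nat.zero_le _)) h3).symm
  rw [h1]
  exact div_self (prod_ne_zero_iff.2 fun j hj => h0 j (mem_range.1 hj).le)

/-- **The grid theorem.** For two closed walks `a`, `b` of odd lengths and points `x`, `y` of the
plane at their vertices, the plane paths `P u v` from `x u` to `y v` cannot be disjoint for all
pairs of edges `a i, a (i+1)` and `b j, b (j+1)`. -/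
theorem no_grid {A B : Type} (x : A → ℂ) (y : B → ℂ) (P : ∀ u v, Path (x u) (y v))
    (a : ℕ → A) (b : ℕ → B) {s t : ℕ} (hs : Odd s) (ht : Odd t) (ha : a s = a 0) (hb : b t = b 0)
    (h1 : ∀ i < s, ∀ j < t, ∀ p q, P (a i) (b j) p ≠ P (a (i + 1)) (b (j + 1)) q)
    (h2 : ∀ i < s, ∀ j < t, ∀ p q, P (a i) (b (j + 1)) p ≠ P (a (i + 1)) (b j) q) : False := by
  have hs0 : 0 < s := hs.pos
  have ht0 : 0 < t := ht.pos
  let c : A → ℂ := fun u =>
    ∑ j ∈ range t, (W (P u (b j)) (y (b (j + 1))) - W (P u (b (j + 1))) (y (b j)))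
  -- the sums change sign along the walk
  have hc : ∀ i < s, c (a (i + 1)) = -c (a i) := by
    intro i hi
    have key : ∀ j ∈ range t,
        (W (P (a i) (b j)) (x (a (i + 1))) - W (P (a i) (b (j + 1))) (x (a (i + 1)))) +
          (W (P (a (i + 1)) (b (j + 1))) (y (b j)) - W (P (a (i + 1)) (b j)) (y (b (j + 1)))) =
        (W (P (a i) (b j)) (y (b (j + 1))) - W (P (a i) (b (j + 1))) (y (b j))) +
          (W (P (a (i + 1)) (b (j + 1))) (x (a i)) - W (P (a (i + 1)) (b j)) (x (a i))) := by
      intro j hj
      have e1 := W_square (P (a i) (b j)).continuous (P (a (i + 1)) (b (j + 1))).continuous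
        (h1 i hi j (mem_range.1 hj))
      have e2 := W_square (P (a i) (b (j + 1))).continuous (P (a (i + 1)) (b j)).continuous
        (h2 i hi j (mem_range.1 hj))
      simp only [Path.source, Path.target] at e1 e2
      linear_combination e1 - e2
    have hsum := sum_congr rfl key
    rw [sum_add_distrib, sum_add_distrib] at hsum
    have t1 : ∑ j ∈ range t, (W (P (a i) (b j)) (x (a (i + 1))) -
        W (P (a i) (b (j + 1))) (x (a (i + 1)))) = 0 := by
      rw [sum_range_sub' (fun j => W (P (a i) (b j)) (x (a (i + 1)))), hb, sub_self]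
    have t2 : ∑ j ∈ range t, (W (P (a (i + 1)) (b (j + 1))) (x (a i)) -
        W (P (a (i + 1)) (b j)) (x (a i))) = 0 := by
      rw [sum_range_sub (fun j => W (P (a (i + 1)) (b j)) (x (a i))), hb, sub_self]
    rw [t1, t2, zero_add, add_zero] at hsum
    have t3 : ∑ j ∈ range t, (W (P (a (i + 1)) (b (j + 1))) (y (b j)) -
        W (P (a (i + 1)) (b j)) (y (b (j + 1)))) = -c (a (i + 1)) := by
      rw [← sum_neg_distrib]
      exact sum_congr rfl fun j _ => by ring
    rw [t3] at hsum
    show c (a (i + 1)) = - c (a i)
    rw [← neg_eq_iff_eq_neg]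
    exact hsum
  have hpow : ∀ i ≤ s, c (a i) = (-1) ^ i * c (a 0) := by
    intro i
    induction i with
    | zero => intro _; simp
    | succ i ih =>
      intro hi
      rw [hc i (by omega), ih (by omega), pow_succ]
      ring
  have hc0 : c (a 0) = 0 := by
    have h := hpow s le_rfl
    rw [ha, hs.neg_one_pow] at h
    have h' : (2 : ℂ) * c (a 0) = 0 := by linear_combination h
    simpa using h'
  -- the exponential of the sum
  have hx : ∀ j < t, x (a 0) ≠ y (b j) := by
    intro j hj e
    have := h2 0 hs0 j hj 0 1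
    simp only [Path.source, Path.target] at this
    exact this e
  have hx' : ∀ j ≤ t, x (a 0) - y (b j) ≠ 0 := by
    intro j hj
    rcases hj.lt_or_eq with h | rfl
    · exact sub_ne_zero.2 (hx j h)
    · rw [hb]
      exact sub_ne_zero.2 (hx 0 ht0)
  have hexp : exp (c (a 0)) = -1 := by
    rw [exp_sum]
    have key : ∀ j ∈ range t, exp (W (P (a 0) (b j)) (y (b (j + 1))) -
        W (P (a 0) (b (j + 1))) (y (b j))) =
        (-1) * ((x (a 0) - y (b j)) / (x (a 0) - y (b (j + 1)))) := by
      intro j hj
      have hj' := mem_range.1 hj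
      have n1 : ∀ p, P (a 0) (b j) p ≠ y (b (j + 1)) := by
        intro p
        have := h1 0 hs0 j hj' p 1
        simpa only [Path.target] using this
      have n2 : ∀ p, P (a 0) (b (j + 1)) p ≠ y (b j) := by
        intro p
        have := h2 0 hs0 j hj' p 1
        simpa only [Path.target] using this
      have n3 : y (b (j + 1)) - y (b j) ≠ 0 := by
        have := n2 1
        rw [Path.target] at this
        exact sub_ne_zero.2 this
      rw [exp_sub, exp_W (P (a 0) (b j)).continuous n1,
        exp_W (P (a 0) (b (j + 1))).continuous n2]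
      simp only [Path.source, Path.target]
      have n4 := hx' j hj'.le
      have n5 := hx' (j + 1) hj'
      field_simp
      ring
    rw [prod_congr rfl key, prod_mul_distrib, prod_const, card_range, ht.neg_one_pow,
      prod_closed (fun j => x (a 0) - y (b j)) hx' (by rw [hb]), mul_one]
  rw [hc0, exp_zero] at hexp
  norm_num at hexp

end Vale.Agent.P305.R2.H457
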