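import Vale.Agent.P305.R2.H457.Geo
import Vale.Agent.P305.H529.Defs
import Mathlib.Analysis.Normed.Affine.AddTorsor
import Mathlib.Analysis.Complex.Basic
import Mathlib.LinearAlgebra.Complex.Module
import Mathlib.Topology.Algebra.Module.FiniteDimension

/-! Disks of a norm, and circular arcs, are discs of a geodesic metric space in the plane. -/

set_option autoImplicit false

open unitInterval Module

namespace Vale.Agent.P305.R2.H457

open Vale.Agent.P305.H529

theorem isGeodesic_normed (E : Type) [NormedAddCommGroup E] [NormedSpace ℝ E] : IsGeodesic E := by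
  intro x y
  refine ⟨{ toFun := fun t => AffineMap.lineMap x y (t : ℝ)
            continuous_toFun := by
              simp only [AffineMap.lineMap_apply_module]
              fun_prop
            source' := by simp
            target' := by simp }, fun t => ?_⟩
  show dist x (AffineMap.lineMap x y (t : ℝ)) + dist (AffineMap.lineMap x y (t : ℝ)) y = dist x y
  rw [dist_left_lineMap, dist_lineMap_right, Real.norm_of_nonneg t.2.1,
    Real.norm_of_nonneg (sub_nonneg.2 t.2.2)]
  ring

/-- The complement of a disk graph, for any norm on a plane. -/
theorem isCoGeo_of_codisk {V : Type} {G : SimpleGraph V} (h : IsCoDisk G) : IsCoGeo G := by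
  obtain ⟨E, i1, i2, c, r, hE, hr, hadj⟩ := h
  have : FiniteDimensional ℝ E := FiniteDimensional.of_finrank_eq_succ (n := 1) hE
  let B : Basis (Fin 2) ℝ E := finBasisOfFinrankEq ℝ E hE
  let e : E ≃ₗ[ℝ] ℂ := B.equiv Complex.basisOneI (Equiv.refl _)
  exact isCoGeo_of_geodesic G e e.toLinearMap.continuous_of_finiteDimensional e.injective
    (isGeodesic_normed E) c r hr hadj

end Vale.Agent.P305.R2.H457
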